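import Mathlib
import Vale.Agent.P205.Final

/-!
P205: every smooth metric on the torus that is invariant under a free circle action has a smooth
isometric immersion into Euclidean four-space.
-/

namespace Vale.Agent.Results.P205.CircleInvariantTori

open Vale.Agent.P205

theorem result (g : TorusMetric) (hg : g.CircleInvariant) : g.HasSmoothIsometricImmersion :=
  circleInvariant_immersion g hg

end Vale.Agent.Results.P205.CircleInvariantTori
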